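import Mathlib
import Vale.Agent.P069.Defs

set_option autoImplicit false

/-!
# The building blocks `XB n` of the example

`XB n` is `ℓ²(List ℕ)` (lists of naturals = nodes of the countably branching tree, the parent of
`i :: s` being `s`) with the equivalent norm
`sup {⟪g, x⟫ : ‖g‖₂ ≤ 1, |S g s| ≤ 1 for all nodes s of height at most n}`
where `S g s` is the sum of `g` over the branch from the root to `s`.
-/

namespace Vale.Agent.P069

open scoped RealInnerProductSpace

/-- The Hilbert space `ℓ²(List ℕ)`. -/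
abbrev H : Type := lp (fun _ : List ℕ => ℝ) 2

/-- Sum of `g` along the branch from the root `[]` to the node `s`. -/
def S (g : List ℕ → ℝ) : List ℕ → ℝ
  | [] => g []
  | (i :: s) => S g s + g (i :: s)

theorem S_add (g h : List ℕ → ℝ) (s : List ℕ) : S (fun r => g r + h r) s = S g s + S h s := by
  induction s with
  | nil => rfl
  | cons i s ih => simp only [S, ih]; ring

theorem S_mul (c : ℝ) (g : List ℕ → ℝ) (s : List ℕ) : S (fun r => c * g r) s = c * S g s := by
  induction s with
  | nil => rfl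
  | cons i s ih => simp only [S, ih]; ring

theorem abs_S_le (g : List ℕ → ℝ) (C : ℝ) (hC : ∀ r, |g r| ≤ C) (s : List ℕ) :
    |S g s| ≤ (s.length + 1) * C := by
  induction s with
  | nil => simpa [S] using hC []
  | cons i s ih =>
    simp only [S, List.length_cons]
    calc |S g s + g (i :: s)| ≤ |S g s| + |g (i :: s)| := abs_add_le _ _
      _ ≤ (s.length + 1) * C + C := add_le_add ih (hC _)
      _ = _ := by push_cast; ring

/-- The norming set of the `n`-th block. -/
def K (n : ℕ) : Set H := {g | ‖g‖ ≤ 1 ∧ ∀ s : List ℕ, s.length ≤ n → |S (fun r => g r) s| ≤ 1}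

theorem zero_mem_K (n : ℕ) : (0 : H) ∈ K n := by
  refine ⟨by simp, fun s _ => ?_⟩
  have : |S (fun r => (0 : H) r) s| ≤ (s.length + 1) * 0 := by
    apply abs_S_le
    intro r
    simp
  simp only [mul_zero] at this
  linarith

theorem neg_mem_K {n : ℕ} {g : H} (hg : g ∈ K n) : -g ∈ K n := by
  refine ⟨by simpa using hg.1, fun s hs => ?_⟩
  have h1 : S (fun r => (-g : H) r) s = - S (fun r => g r) s := by
    have := S_mul (-1) (fun r => g r) s
    simpa using this
  rw [h1, abs_neg]
  exact hg.2 s hs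

theorem small_mem_K (n : ℕ) (g : H) (hg : ‖g‖ ≤ 1 / (n + 1)) : g ∈ K n := by
  have hn : (0 : ℝ) < n + 1 := by positivity
  refine ⟨hg.trans ?_, fun s hs => ?_⟩
  · rw [div_le_one hn]; linarith
  · have h1 : |S (fun r => g r) s| ≤ (s.length + 1) * ‖g‖ := by
      apply abs_S_le
      intro r
      have := lp.norm_apply_le_norm (p := 2) (by norm_num) g r
      simpa using this
    calc |S (fun r => g r) s| ≤ (s.length + 1) * ‖g‖ := h1
      _ ≤ (n + 1) * (1 / (n + 1)) := by
          gcongr
      _ = 1 := by field_simp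

/-- The norm of the `n`-th block. -/
noncomputable def NB (n : ℕ) (x : H) : ℝ := ⨆ g : K n, ⟪(g : H), x⟫

theorem inner_le_norm_of_mem {n : ℕ} {g : H} (hg : g ∈ K n) (x : H) : ⟪g, x⟫ ≤ ‖x‖ := by
  calc ⟪g, x⟫ ≤ ‖g‖ * ‖x‖ := real_inner_le_norm g x
    _ ≤ 1 * ‖x‖ := by gcongr; exact hg.1
    _ = ‖x‖ := one_mul _

theorem bddAbove_NB (n : ℕ) (x : H) : BddAbove (Set.range fun g : K n => ⟪(g : H), x⟫) :=
  ⟨‖x‖, by rintro _ ⟨g, rfl⟩; exact inner_le_norm_of_mem g.2 x⟩

instance (n : ℕ) : Nonempty (K n) := ⟨⟨0, zero_mem_K n⟩⟩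

theorem le_NB {n : ℕ} {g : H} (hg : g ∈ K n) (x : H) : ⟪g, x⟫ ≤ NB n x :=
  le_ciSup (bddAbove_NB n x) ⟨g, hg⟩

theorem NB_le {n : ℕ} {x : H} {C : ℝ} (h : ∀ g ∈ K n, ⟪g, x⟫ ≤ C) : NB n x ≤ C :=
  ciSup_le fun g => h g g.2

theorem exists_lt_NB {n : ℕ} {x : H} {c : ℝ} (h : c < NB n x) : ∃ g ∈ K n, c < ⟪g, x⟫ := by
  obtain ⟨g, hg⟩ := exists_lt_of_lt_ciSup h
  exact ⟨g, g.2, hg⟩

theorem NB_le_norm (n : ℕ) (x : H) : NB n x ≤ ‖x‖ := NB_le fun _ hg => inner_le_norm_of_mem hg x

theorem norm_le_NB (n : ℕ) (x : H) : ‖x‖ ≤ (n + 1) * NB n x := by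
  have hn : (0 : ℝ) < n + 1 := by positivity
  rcases eq_or_ne x 0 with rfl | hx
  · have : 0 ≤ NB n (0 : H) := by
      have := le_NB (zero_mem_K n) (0 : H)
      simpa using this
    simp only [norm_zero]
    positivity
  · have hx' : 0 < ‖x‖ := norm_pos_iff.mpr hx
    have hmem : ((1 / ((n + 1) * ‖x‖)) • x : H) ∈ K n := by
      apply small_mem_K
      rw [norm_smul, Real.norm_of_nonneg (by positivity)]
      apply le_of_eq
      field_simp
    have h := le_NB hmem x
    rw [real_inner_smul_left, real_inner_self_eq_norm_sq] at h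
    calc ‖x‖ = (n + 1) * (1 / ((n + 1) * ‖x‖) * ‖x‖ ^ 2) := by field_simp
      _ ≤ (n + 1) * NB n x := by gcongr

theorem NB_nonneg (n : ℕ) (x : H) : 0 ≤ NB n x := by
  have := le_NB (zero_mem_K n) x
  simpa using this

theorem NB_add_le (n : ℕ) (x y : H) : NB n (x + y) ≤ NB n x + NB n y := by
  refine NB_le fun g hg => ?_
  rw [inner_add_right]
  exact add_le_add (le_NB hg x) (le_NB hg y)

theorem NB_smul_le (n : ℕ) (c : ℝ) (x : H) : NB n (c • x) ≤ |c| * NB n x := by
  refine NB_le fun g hg => ?_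
  rw [real_inner_smul_right]
  rcases le_total 0 c with hc | hc
  · rw [abs_of_nonneg hc]
    exact mul_le_mul_of_nonneg_left (le_NB hg x) hc
  · rw [abs_of_nonpos hc]
    have := le_NB (neg_mem_K hg) x
    rw [inner_neg_left] at this
    nlinarith

/-- The `n`-th block: `ℓ²(List ℕ)` with the norm `NB n`. -/
def XB (_n : ℕ) : Type := H

noncomputable instance (n : ℕ) : AddCommGroup (XB n) := inferInstanceAs (AddCommGroup H)
noncomputable instance (n : ℕ) : Module ℝ (XB n) := inferInstanceAs (Module ℝ H)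

/-- The identity as a linear equivalence from the Hilbert space to the block. -/
noncomputable def toXB (n : ℕ) : H ≃ₗ[ℝ] XB n := LinearEquiv.refl ℝ H

noncomputable instance (n : ℕ) : Norm (XB n) := ⟨fun x => NB n ((toXB n).symm x)⟩

theorem norm_XB_def (n : ℕ) (x : XB n) : ‖x‖ = NB n ((toXB n).symm x) := rfl

theorem norm_toXB (n : ℕ) (x : H) : ‖toXB n x‖ = NB n x := rfl

theorem coreXB (n : ℕ) : NormedSpace.Core ℝ (XB n) where
  norm_nonneg x := NB_nonneg n _
  norm_smul c x := by
    apply le_antisymm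
    · exact NB_smul_le n c _
    · rcases eq_or_ne c 0 with rfl | hc
      · simp only [norm_zero, zero_mul]
        exact NB_nonneg n _
      · have h := NB_smul_le n c⁻¹ ((toXB n).symm (c • x))
        rw [map_smul, smul_smul, inv_mul_cancel₀ hc, one_smul, abs_inv] at h
        have hc' : 0 < |c| := abs_pos.mpr hc
        rw [Real.norm_eq_abs, norm_XB_def, norm_XB_def, map_smul]
        calc |c| * NB n ((toXB n).symm x)
            ≤ |c| * (|c|⁻¹ * NB n (c • (toXB n).symm x)) := by gcongr
          _ = _ := by field_simp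
  norm_triangle x y := NB_add_le n _ _
  norm_eq_zero_iff x := by
    constructor
    · intro h
      have h1 := norm_le_NB n ((toXB n).symm x)
      rw [← norm_XB_def, h, mul_zero] at h1
      have h2 : (toXB n).symm x = 0 := norm_le_zero_iff.mp h1
      simpa using h2
    · rintro rfl
      have h1 := NB_le_norm n (0 : H)
      rw [norm_zero] at h1
      exact le_antisymm h1 (NB_nonneg n _)

noncomputable instance (n : ℕ) : NormedAddCommGroup (XB n) := NormedAddCommGroup.ofCore (coreXB n)
noncomputable instance (n : ℕ) : NormedSpace ℝ (XB n) := NormedSpace.ofCore (coreXB n)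

theorem norm_XB_def' (n : ℕ) (x : XB n) : ‖x‖ = NB n ((toXB n).symm x) := rfl

theorem norm_toXB' (n : ℕ) (x : H) : ‖toXB n x‖ = NB n x := rfl

/-- The identity as a continuous linear equivalence from the Hilbert space to the block. -/
noncomputable def eXB (n : ℕ) : H ≃L[ℝ] XB n :=
  (toXB n).toContinuousLinearEquivOfBounds 1 (n + 1)
    (fun x => by rw [one_mul]; exact NB_le_norm n x)
    (fun x => norm_le_NB n _)

theorem norm_eXB (n : ℕ) (x : H) : ‖eXB n x‖ = NB n x := rfl

theorem norm_XB (n : ℕ) (x : XB n) : ‖x‖ = NB n ((eXB n).symm x) := rfl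

instance (n : ℕ) : CompleteSpace (XB n) :=
  (completeSpace_congr (e := (eXB n).toEquiv) (eXB n).isUniformEmbedding).mp inferInstance

end Vale.Agent.P069
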