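import Mathlib
import Vale.Agent.P069.Block

set_option autoImplicit false

/-!
# The midpoint convexity property of the blocks
-/

namespace Vale.Agent.P069

open scoped RealInnerProductSpace

/-- An element of `H` given by coordinates dominated by those of `g`. -/
def mkH (u : List ℕ → ℝ) (g : H) (h : ∀ r, |u r| ≤ |g r|) : H :=
  ⟨u, (lp.memℓp g).mono' (by simpa [Real.norm_eq_abs] using h)⟩

theorem mkH_apply (u : List ℕ → ℝ) (g : H) (h : ∀ r, |u r| ≤ |g r|) (r : List ℕ) :
    mkH u g h r = u r := rfl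

theorem norm_sq_H (g : H) : ‖g‖ ^ 2 = ∑' r, (g r) ^ 2 := by
  rw [← real_inner_self_eq_norm_sq, lp.inner_eq_tsum]
  congr 1
  ext r
  simp [sq]

theorem norm_mkH_le (u : List ℕ → ℝ) (g : H) (h : ∀ r, |u r| ≤ |g r|) : ‖mkH u g h‖ ≤ ‖g‖ := by
  apply lp.norm_mono (by norm_num)
  intro r
  simpa [Real.norm_eq_abs, mkH_apply] using h r

theorem inner_eq_zero_of_disjoint (f g : H) (h : ∀ r, f r * g r = 0) : ⟪f, g⟫ = 0 := by
  rw [lp.inner_eq_tsum]
  have : ∀ r, ⟪f r, g r⟫ = 0 := by
    intro r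
    simp only [RCLike.inner_apply, conj_trivial]
    rw [mul_comm]
    exact h r
  rw [tsum_congr this, tsum_zero]

/-- restriction to a finite set of nodes -/
noncomputable def rE (E : Finset (List ℕ)) (f : H) : H := ∑ i ∈ E, lp.single 2 i (f i)

theorem rE_apply (E : Finset (List ℕ)) (f : H) (r : List ℕ) :
    rE E f r = if r ∈ E then f r else 0 := by
  unfold rE
  rw [lp.coeFn_sum, Finset.sum_apply]
  simp only [lp.coeFn_single]
  rw [Finset.sum_pi_single]

theorem exists_rE_close (f : H) {δ : ℝ} (hδ : 0 < δ) :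
    ∃ E0 : Finset (List ℕ), ∀ E, E0 ⊆ E → ‖f - rE E f‖ < δ := by
  have h := lp.hasSum_single (p := 2) (by norm_num) f
  rw [HasSum, SummationFilter.unconditional_filter, Metric.tendsto_atTop] at h
  obtain ⟨E0, hE0⟩ := h δ hδ
  refine ⟨E0, fun E hE => ?_⟩
  have := hE0 E hE
  rwa [dist_comm, dist_eq_norm] at this

/-- Finite sets of nodes closed under taking parents. -/
def Closed (E : Finset (List ℕ)) : Prop := ∀ (i : ℕ) (s : List ℕ), i :: s ∈ E → s ∈ E

theorem exists_closed (E0 : Finset (List ℕ)) : ∃ E, E0 ⊆ E ∧ Closed E := by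
  refine ⟨E0.biUnion fun s => s.tails.toFinset, ?_, ?_⟩
  · intro s hs
    simp only [Finset.mem_biUnion, List.mem_toFinset, List.mem_tails]
    exact ⟨s, hs, List.suffix_refl s⟩
  · intro i s hs
    simp only [Finset.mem_biUnion, List.mem_toFinset, List.mem_tails] at hs ⊢
    obtain ⟨r, hr, hir⟩ := hs
    exact ⟨r, hr, (List.suffix_cons i s).trans hir⟩

theorem S_eq_of_mem {E : Finset (List ℕ)} (hE : Closed E) (f g : List ℕ → ℝ)
    (hfg : ∀ r ∈ E, f r = g r) (s : List ℕ) (hs : s ∈ E) : S f s = S g s := by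
  induction s with
  | nil => exact hfg _ hs
  | cons i s ih =>
    simp only [S]
    rw [ih (hE i s hs), hfg _ hs]

theorem abs_S_res_le {E : Finset (List ℕ)} (hE : Closed E) (f g : List ℕ → ℝ) (n : ℕ)
    (hf : ∀ s : List ℕ, s.length ≤ n → |S f s| ≤ 1)
    (hg : ∀ r, g r = if r ∈ E then f r else 0) (s : List ℕ) (hs : s.length ≤ n) :
    |S g s| ≤ 1 := by
  induction s with
  | nil =>
    have h0 := hf [] (by simp)
    simp only [S] at h0 ⊢
    rw [hg]
    split_ifs
    · exact h0
    · simp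
  | cons i s ih =>
    by_cases h : i :: s ∈ E
    · rw [S_eq_of_mem hE g f (fun r hr => by rw [hg, if_pos hr]) _ h]
      exact hf _ hs
    · simp only [S]
      rw [hg (i :: s), if_neg h, add_zero]
      exact ih (by simp at hs; omega)

theorem rE_mem_K {E : Finset (List ℕ)} (hE : Closed E) {n : ℕ} {f : H} (hf : f ∈ K n) :
    rE E f ∈ K n := by
  refine ⟨?_, ?_⟩
  · refine le_trans ?_ hf.1
    apply lp.norm_mono (by norm_num)
    intro r
    rw [rE_apply]
    split_ifs <;> simp
  · exact abs_S_res_le hE _ _ n hf.2 (fun r => rE_apply E f r)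

/-- increments of a tree function -/
def D (V : List ℕ → ℝ) : List ℕ → ℝ
  | [] => V []
  | (i :: s) => V (i :: s) - V s

theorem S_D (V : List ℕ → ℝ) (s : List ℕ) : S (D V) s = V s := by
  induction s with
  | nil => rfl
  | cons i s ih => simp only [S, D, ih]; ring

theorem D_S (g : List ℕ → ℝ) (s : List ℕ) : D (S g) s = g s := by
  cases s with
  | nil => rfl
  | cons i s => simp only [S, D]; ring

/-- Tree function obtained by cutting `S h` with a `1`-Lipschitz function on a union of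
complementary subtrees. -/
noncomputable def cut (P : List ℕ → Prop) (θ : ℝ → ℝ) (h : List ℕ → ℝ) : List ℕ → ℝ := by
  classical
  exact fun s => if P s then θ (S h s) else 0

theorem abs_D_cut_le {E : Finset (List ℕ)} (hE : Closed E) (P : List ℕ → Prop) (θ : ℝ → ℝ)
    (hθ0 : θ 0 = 0) (hθ : ∀ a b, |θ a - θ b| ≤ |a - b|)
    (hP : ∀ (i : ℕ) (s : List ℕ), i :: s ∉ E → (P (i :: s) ↔ P s))
    (h : List ℕ → ℝ) (hh : ∀ r ∈ E, h r = 0) (r : List ℕ) :
    |D (cut P θ h) r| ≤ |h r| := by
  have hS : ∀ s ∈ E, S h s = 0 := by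
    intro s hs
    rw [S_eq_of_mem hE h (fun _ => 0) hh s hs]
    have := S_mul 0 (fun _ => 0) s
    simpa using this
  have hV : ∀ s ∈ E, cut P θ h s = 0 := by
    intro s hs
    unfold cut
    split_ifs
    · rw [hS s hs, hθ0]
    · rfl
  cases r with
  | nil =>
    simp only [D]
    unfold cut
    split_ifs
    · have := hθ (S h []) 0
      rw [hθ0, sub_zero, sub_zero] at this
      simpa [S] using this
    · simp
  | cons i s =>
    simp only [D]
    by_cases hi : i :: s ∈ E
    · rw [hV _ hi, hV _ (hE i s hi)]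
      simp
    · have hPi := hP i s hi
      unfold cut
      by_cases hPs : P s
      · rw [if_pos (hPi.mpr hPs), if_pos hPs]
        refine (hθ _ _).trans ?_
        simp [S]
      · rw [if_neg (fun h => hPs (hPi.mp h)), if_neg hPs]
        simp

/-- Stability of `K n` under subtracting a nonnegative tree function living where `S f ≥ 0`. -/
theorem comb_mem_K {n : ℕ} {f v : H} (hf : f ∈ K n) (hfv : ∀ r, f r * v r = 0) (hv : ‖v‖ ≤ 1)
    (σ : ℝ) (hσ : σ = 1 ∨ σ = -1)
    (hV : ∀ s : List ℕ, s.length ≤ n → 0 ≤ S (fun r => v r) s ∧ S (fun r => v r) s ≤ 2 ∧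
      (S (fun r => v r) s = 0 ∨ 0 ≤ σ * S (fun r => f r) s))
    {α β : ℝ} (hα : 0 ≤ α) (hβ : 0 ≤ β) (hαβ : α ^ 2 + 4 * β ^ 2 ≤ 1) :
    α • f - (σ * β) • v ∈ K n := by
  have hσ2 : σ ^ 2 = 1 := by rcases hσ with rfl | rfl <;> norm_num
  have hα1 : α ≤ 1 := by nlinarith [sq_nonneg β]
  have hβ1 : 2 * β ≤ 1 := by nlinarith [sq_nonneg α]
  refine ⟨?_, ?_⟩
  · have h0 : ⟪f, v⟫ = 0 := inner_eq_zero_of_disjoint f v hfv
    have h1 : ‖α • f - (σ * β) • v‖ ^ 2 = α ^ 2 * ‖f‖ ^ 2 + β ^ 2 * ‖v‖ ^ 2 := by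
      rw [norm_sub_sq_real, real_inner_smul_left, real_inner_smul_right, h0, norm_smul, norm_smul,
        mul_pow, mul_pow, Real.norm_eq_abs, Real.norm_eq_abs, sq_abs, sq_abs, mul_pow, hσ2]
      ring
    have h2 : ‖f‖ ^ 2 ≤ 1 := by
      have := hf.1
      nlinarith [norm_nonneg f]
    have h3 : ‖v‖ ^ 2 ≤ 1 := by nlinarith [norm_nonneg v]
    have h4 : ‖α • f - (σ * β) • v‖ ^ 2 ≤ 1 := by
      rw [h1]
      nlinarith [sq_nonneg α, sq_nonneg β]
    nlinarith [norm_nonneg (α • f - (σ * β) • v)]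
  · intro s hs
    have hlin : S (fun r => (α • f - (σ * β) • v : H) r) s
        = α * S (fun r => f r) s - σ * β * S (fun r => v r) s := by
      have h1 : (fun r => (α • f - (σ * β) • v : H) r)
          = fun r => (α * f r) + (-(σ * β)) * v r := by
        ext r
        show α * f r - (σ * β) * v r = _
        ring
      rw [h1, S_add, S_mul, S_mul]
      ring
    rw [hlin]
    have hfs := hf.2 s hs
    rw [abs_le] at hfs
    obtain ⟨hv0, hv2, hv3⟩ := hV s hs
    rw [abs_le]
    rcases hv3 with h | h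
    · rw [h]
      constructor <;> nlinarith
    · have hb : 0 ≤ β * S (fun r => v r) s := mul_nonneg hβ hv0
      have hb' : β * S (fun r => v r) s ≤ 1 := by nlinarith
      rcases hσ with rfl | rfl
      · have hs0 : 0 ≤ S (fun r => f r) s := by linarith
        constructor <;> nlinarith
      · have hs0 : S (fun r => f r) s ≤ 0 := by linarith
        constructor <;> nlinarith

end Vale.Agent.P069
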