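import Mathlib
import Vale.Agent.P069.BlockAMUC

set_option autoImplicit false

/-!
# The midpoint convexity property of the blocks, main statement
-/

namespace Vale.Agent.P069

open scoped RealInnerProductSpace

theorem exists_coef (a b : ℝ) (ha : 0 ≤ a) (hb : 0 ≤ b) :
    ∃ α β : ℝ, 0 ≤ α ∧ 0 ≤ β ∧ α ^ 2 + 4 * β ^ 2 ≤ 1 ∧
      α * a + β * b / 4 = Real.sqrt (a ^ 2 + b ^ 2 / 64) := by
  set R := Real.sqrt (a ^ 2 + b ^ 2 / 64) with hR
  have hR2 : R ^ 2 = a ^ 2 + b ^ 2 / 64 := Real.sq_sqrt (by positivity)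
  have hR0 : 0 ≤ R := Real.sqrt_nonneg _
  rcases eq_or_lt_of_le hR0 with h | h
  · refine ⟨0, 0, le_refl _, le_refl _, by norm_num, ?_⟩
    rw [← h]; ring
  · refine ⟨a / R, b / (16 * R), by positivity, by positivity, ?_, ?_⟩
    · apply le_of_eq
      field_simp
      nlinarith [hR2]
    · field_simp
      nlinarith [hR2]

theorem inner_rE (E : Finset (List ℕ)) (f x : H) : ⟪rE E f, x⟫ = ⟪f, rE E x⟫ := by
  rw [lp.inner_eq_tsum, lp.inner_eq_tsum]
  apply tsum_congr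
  intro r
  simp only [RCLike.inner_apply, conj_trivial]
  rw [rE_apply, rE_apply]
  split_ifs <;> simp

theorem rE_eq_zero (E : Finset (List ℕ)) (v : H) (hv : ∀ r ∈ E, v r = 0) : rE E v = 0 := by
  apply lp.ext
  ext r
  rw [rE_apply]
  split_ifs with h
  · rw [hv r h]; rfl
  · rfl

theorem cut_decomp (P : List ℕ → Prop) (h : List ℕ → ℝ) (s : List ℕ) :
    S h s = cut P (fun a => max a 0) h s - cut P (fun a => max (-a) 0) h s
      + cut (fun r => ¬ P r) (fun a => max a 0) h s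
      - cut (fun r => ¬ P r) (fun a => max (-a) 0) h s := by
  unfold cut
  by_cases hP : P s
  · simp [hP]
  · simp [hP]

theorem D_cut_decomp (P : List ℕ → Prop) (h : List ℕ → ℝ) (s : List ℕ) :
    h s = D (cut P (fun a => max a 0) h) s - D (cut P (fun a => max (-a) 0) h) s
      + D (cut (fun r => ¬ P r) (fun a => max a 0) h) s
      - D (cut (fun r => ¬ P r) (fun a => max (-a) 0) h) s := by
  cases s with
  | nil =>
    have := cut_decomp P h []
    simp only [D]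
    rw [← this]
    rfl
  | cons i s =>
    have h1 := cut_decomp P h s
    have h2 := cut_decomp P h (i :: s)
    have h3 : h (i :: s) = S h (i :: s) - S h s := by simp [S]
    simp only [D]
    rw [h3, h2, h1]
    ring

theorem block_H (n : ℕ) (x : H) {η : ℝ} (hη : 0 < η) :
    ∃ E : Finset (List ℕ), ∀ y : H, (∀ r ∈ E, y r = 0) → ∃ τ : ℝ, (τ = 1 ∨ τ = -1) ∧
      Real.sqrt (NB n x ^ 2 + NB n y ^ 2 / 64) - η ≤ NB n (x + τ • y) ∧
      NB n x - η ≤ NB n (x - τ • y) := by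
  set δ := η / 4 with hδ
  have hδ0 : 0 < δ := by positivity
  obtain ⟨f0, hf0, hf0x⟩ := exists_lt_NB (n := n) (x := x) (c := NB n x - δ) (by linarith)
  obtain ⟨E0, hE0⟩ := exists_rE_close x hδ0
  obtain ⟨E, hEE, hE⟩ := exists_closed E0
  have hxE := hE0 E hEE
  refine ⟨E, fun y hy => ?_⟩
  set f := rE E f0 with hf
  have hfK : f ∈ K n := rE_mem_K hE hf0
  have hfx : NB n x - 2 * δ ≤ ⟪f, x⟫ := by
    have h1 : ⟪f, x⟫ = ⟪f0, x⟫ - ⟪f0, x - rE E x⟫ := by
      rw [hf, inner_rE, inner_sub_right]; ring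
    have h2 : ⟪f0, x - rE E x⟫ ≤ δ := (inner_le_norm_of_mem hf0 _).trans hxE.le
    linarith
  have hfy : ⟪f, y⟫ = 0 := by
    apply inner_eq_zero_of_disjoint
    intro r
    rw [hf, rE_apply]
    split_ifs with h
    · rw [hy r h, mul_zero]
    · rw [zero_mul]
  obtain ⟨g, hg, hgy⟩ := exists_lt_NB (n := n) (x := y) (c := NB n y - δ) (by linarith)
  set h : List ℕ → ℝ := fun r => if r ∈ E then 0 else g r with hh
  have hhg : ∀ r, |h r| ≤ |g r| := by
    intro r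
    simp only [hh]
    split_ifs <;> simp
  have hhE : ∀ r ∈ E, h r = 0 := by
    intro r hr
    simp [hh, hr]
  have hSh : ∀ s : List ℕ, s.length ≤ n → |S h s| ≤ 2 := by
    intro s hs
    have h1 : h = fun r => g r + (-1) * (rE E g) r := by
      ext r
      simp only [hh]
      rw [rE_apply]
      split_ifs <;> ring
    have h2 : S h s = S (fun r => g r) s - S (fun r => rE E g r) s := by
      rw [h1, S_add, S_mul]; ring
    have h3 := hg.2 s hs
    have h4 := (rE_mem_K hE hg).2 s hs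
    rw [h2]
    calc |S (fun r => g r) s - S (fun r => rE E g r) s|
        ≤ |S (fun r => g r) s| + |S (fun r => rE E g r) s| := abs_sub _ _
      _ ≤ 2 := by linarith
  have hhy : ⟪mkH h g hhg, y⟫ = ⟪g, y⟫ := by
    rw [lp.inner_eq_tsum, lp.inner_eq_tsum]
    apply tsum_congr
    intro r
    simp only [RCLike.inner_apply, conj_trivial, mkH_apply, hh]
    split_ifs with hr
    · rw [hy r hr]; ring
    · rfl
  obtain ⟨α, β, hα, hβ, hαβ, hR⟩ := exists_coef (NB n x) (NB n y) (NB_nonneg n x) (NB_nonneg n y)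
  have hα1 : α ≤ 1 := by nlinarith [sq_nonneg β]
  have hβ1 : 2 * β ≤ 1 := by nlinarith [sq_nonneg α]
  have key : ∀ (Q : List ℕ → Prop) (σ : ℝ) (θ : ℝ → ℝ), (σ = 1 ∨ σ = -1) →
      (∀ s, Q s → 0 ≤ σ * S (fun r => f r) s) → θ 0 = 0 → (∀ a b, |θ a - θ b| ≤ |a - b|) →
      (∀ a, 0 ≤ θ a) → (∀ a, θ a ≤ |a|) →
      (∀ (i : ℕ) (s : List ℕ), i :: s ∉ E → (Q (i :: s) ↔ Q s)) →
      ∃ v : H, (∀ r, v r = D (cut Q θ h) r) ∧ ((NB n y - δ) / 4 ≤ |⟪v, y⟫| →
        ∃ τ : ℝ, (τ = 1 ∨ τ = -1) ∧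
        Real.sqrt (NB n x ^ 2 + NB n y ^ 2 / 64) - η ≤ NB n (x + τ • y) ∧
        NB n x - η ≤ NB n (x - τ • y)) := by
    intro Q σ θ hσ hQσ hθ0 hθ hθnn hθabs hQ
    have hDh : ∀ r, |D (cut Q θ h) r| ≤ |h r| :=
      abs_D_cut_le hE Q θ hθ0 hθ hQ h hhE
    have hDg : ∀ r, |D (cut Q θ h) r| ≤ |g r| := fun r => (hDh r).trans (hhg r)
    set v : H := mkH (D (cut Q θ h)) g hDg with hv
    refine ⟨v, fun r => rfl, fun hvy => ?_⟩
    have hvE : ∀ r ∈ E, v r = 0 := by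
      intro r hr
      have := hDh r
      rw [hhE r hr, abs_zero] at this
      exact abs_nonpos_iff.mp this
    have hfv : ∀ r, f r * v r = 0 := by
      intro r
      by_cases hr : r ∈ E
      · rw [hvE r hr, mul_zero]
      · rw [hf, rE_apply, if_neg hr, zero_mul]
    have hv1 : ‖v‖ ≤ 1 := (norm_mkH_le _ _ _).trans hg.1
    have hvx : |⟪v, x⟫| ≤ δ := by
      have h1 : ⟪v, x⟫ = ⟪v, x - rE E x⟫ := by
        rw [inner_sub_right, ← inner_rE, rE_eq_zero E v hvE]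
        simp
      rw [h1]
      calc |⟪v, x - rE E x⟫| ≤ ‖v‖ * ‖x - rE E x‖ := abs_real_inner_le_norm _ _
        _ ≤ 1 * δ := by gcongr
        _ = δ := one_mul _
    have hzK : α • f - (σ * β) • v ∈ K n := by
      refine comb_mem_K hfK hfv hv1 σ hσ ?_ hα hβ hαβ
      intro s hs
      have hSv : S (fun r => v r) s = cut Q θ h s := S_D (cut Q θ h) s
      rw [hSv]
      unfold cut
      split_ifs with hQs
      · refine ⟨hθnn _, (hθabs _).trans (hSh s hs), Or.inr (hQσ s hQs)⟩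
      · exact ⟨le_refl _, by norm_num, Or.inl rfl⟩
    have hσabs : |σ| = 1 := by rcases hσ with rfl | rfl <;> simp
    set z := α • f - (σ * β) • v with hz
    have hzx : α * NB n x - 5 / 2 * δ ≤ ⟪z, x⟫ := by
      rw [hz, inner_sub_left, real_inner_smul_left, real_inner_smul_left]
      have h1 : |σ * β * ⟪v, x⟫| ≤ 1 / 2 * δ := by
        rw [abs_mul, abs_mul, hσabs, abs_of_nonneg hβ, one_mul]
        gcongr
        linarith
      have h2 := abs_le.mp h1
      have h3 : α * (NB n x - 2 * δ) ≤ α * ⟪f, x⟫ := by gcongr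
      nlinarith
    have hzy : ⟪z, y⟫ = -(σ * β * ⟪v, y⟫) := by
      rw [hz, inner_sub_left, real_inner_smul_left, real_inner_smul_left, hfy]
      ring
    have hzy' : β * |⟪v, y⟫| = |⟪z, y⟫| := by
      rw [hzy, abs_neg, abs_mul, abs_mul, hσabs, abs_of_nonneg hβ, one_mul]
    obtain ⟨τ, hτ, hτz⟩ : ∃ τ : ℝ, (τ = 1 ∨ τ = -1) ∧ τ * ⟪z, y⟫ = |⟪z, y⟫| := by
      rcases le_total 0 ⟪z, y⟫ with h0 | h0
      · exact ⟨1, Or.inl rfl, by rw [abs_of_nonneg h0, one_mul]⟩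
      · exact ⟨-1, Or.inr rfl, by rw [abs_of_nonpos h0]; ring⟩
    refine ⟨τ, hτ, ?_, ?_⟩
    · have h1 := le_NB hzK (x + τ • y)
      rw [inner_add_right, real_inner_smul_right, hτz, ← hzy'] at h1
      have h2 : β * ((NB n y - δ) / 4) ≤ β * |⟪v, y⟫| := by gcongr
      rw [← hR]
      nlinarith
    · have h1 := le_NB hfK (x - τ • y)
      rw [inner_sub_right, real_inner_smul_right, hfy] at h1
      linarith
  -- the four pieces
  have hPinv : ∀ (i : ℕ) (s : List ℕ), i :: s ∉ E →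
      ((0 ≤ S (fun r => f r) (i :: s)) ↔ (0 ≤ S (fun r => f r) s)) := by
    intro i s his
    have : f (i :: s) = 0 := by rw [hf, rE_apply, if_neg his]
    simp only [S, this, add_zero]
  have hmax0 : ∀ a b : ℝ, |max a 0 - max b 0| ≤ |a - b| := fun a b => by
    exact abs_max_sub_max_le_abs a b 0
  have hmax1 : ∀ a b : ℝ, |max (-a) 0 - max (-b) 0| ≤ |a - b| := fun a b => by
    refine (abs_max_sub_max_le_abs (-a) (-b) 0).trans ?_
    rw [neg_sub_neg, abs_sub_comm]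
  have hle0 : ∀ a : ℝ, max a 0 ≤ |a| := fun a => max_le (le_abs_self a) (abs_nonneg a)
  have hle1 : ∀ a : ℝ, max (-a) 0 ≤ |a| := fun a => max_le (neg_le_abs a) (abs_nonneg a)
  obtain ⟨v1, hv1, k1⟩ := key (fun s => 0 ≤ S (fun r => f r) s) 1 (fun a => max a 0) (Or.inl rfl)
    (fun s hs => by simpa using hs) (by simp) hmax0 (fun a => le_max_right _ _) hle0 hPinv
  obtain ⟨v2, hv2, k2⟩ := key (fun s => 0 ≤ S (fun r => f r) s) 1 (fun a => max (-a) 0)
    (Or.inl rfl)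
    (fun s hs => by simpa using hs) (by simp) hmax1 (fun a => le_max_right _ _) hle1 hPinv
  obtain ⟨v3, hv3, k3⟩ := key (fun s => ¬ 0 ≤ S (fun r => f r) s) (-1) (fun a => max a 0)
    (Or.inr rfl) (fun s hs => by simp only [not_le] at hs; linarith) (by simp) hmax0
    (fun a => le_max_right _ _) hle0 (fun i s his => not_congr (hPinv i s his))
  obtain ⟨v4, hv4, k4⟩ := key (fun s => ¬ 0 ≤ S (fun r => f r) s) (-1) (fun a => max (-a) 0)
    (Or.inr rfl) (fun s hs => by simp only [not_le] at hs; linarith) (by simp) hmax1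
    (fun a => le_max_right _ _) hle1 (fun i s his => not_congr (hPinv i s his))
  have hdec : mkH h g hhg = v1 - v2 + v3 - v4 := by
    apply lp.ext
    ext r
    have := D_cut_decomp (fun s => 0 ≤ S (fun r => f r) s) h r
    show h r = v1 r - v2 r + v3 r - v4 r
    rw [hv1, hv2, hv3, hv4]
    exact this
  have hsum : ⟪g, y⟫ = ⟪v1, y⟫ - ⟪v2, y⟫ + ⟪v3, y⟫ - ⟪v4, y⟫ := by
    rw [← hhy, hdec, inner_sub_left, inner_add_left, inner_sub_left]
  by_contra hcon
  have c1 : |⟪v1, y⟫| < (NB n y - δ) / 4 := by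
    by_contra hc; exact hcon (k1 (not_lt.mp hc))
  have c2 : |⟪v2, y⟫| < (NB n y - δ) / 4 := by
    by_contra hc; exact hcon (k2 (not_lt.mp hc))
  have c3 : |⟪v3, y⟫| < (NB n y - δ) / 4 := by
    by_contra hc; exact hcon (k3 (not_lt.mp hc))
  have c4 : |⟪v4, y⟫| < (NB n y - δ) / 4 := by
    by_contra hc; exact hcon (k4 (not_lt.mp hc))
  have d1 := abs_lt.mp c1
  have d2 := abs_lt.mp c2
  have d3 := abs_lt.mp c3
  have d4 := abs_lt.mp c4
  linarith

theorem block_property (n : ℕ) (x : XB n) {η : ℝ} (hη : 0 < η) :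
    ∃ T : Finset (StrongDual ℝ (XB n)), ∀ y : XB n, (∀ φ ∈ T, φ y = 0) →
      ∃ τ : ℝ, (τ = 1 ∨ τ = -1) ∧
      Real.sqrt (‖x‖ ^ 2 + ‖y‖ ^ 2 / 64) - η ≤ ‖x + τ • y‖ ∧
      ‖x‖ - η ≤ ‖x - τ • y‖ := by
  classical
  obtain ⟨E, hE⟩ := block_H n ((eXB n).symm x) hη
  refine ⟨E.image fun r =>
    (lp.evalCLM ℝ (fun _ : List ℕ => ℝ) 2 r).comp ((eXB n).symm : XB n →L[ℝ] H), fun y hy => ?_⟩
  obtain ⟨τ, hτ, h1, h2⟩ := hE ((eXB n).symm y) (by
    intro r hr
    exact hy _ (Finset.mem_image_of_mem _ hr))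
  exact ⟨τ, hτ, h1, h2⟩

end Vale.Agent.P069
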