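import Mathlib
import Vale.Agent.P069.Block

set_option autoImplicit false

/-!
# Reflexivity of the blocks and of their `ℓ²` sum
-/

namespace Vale.Agent.P069

open scoped RealInnerProductSpace

/-- Renormings of a real Hilbert space are reflexive. -/
theorem isReflexive_of_hilbert {H' X : Type*} [NormedAddCommGroup H'] [InnerProductSpace ℝ H']
    [CompleteSpace H'] [NormedAddCommGroup X] [NormedSpace ℝ X] (e : H' ≃L[ℝ] X) :
    IsReflexive X := by
  intro Φ
  -- the functional `h ↦ Φ (⟪h, e.symm ·⟫)`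
  let L : H' →L[ℝ] StrongDual ℝ X :=
    ((ContinuousLinearMap.compL ℝ X H' ℝ).flip (e.symm : X →L[ℝ] H')).comp (innerSL ℝ)
  have hL : ∀ h x, L h x = ⟪h, e.symm x⟫ := fun h x => rfl
  obtain ⟨w, hw⟩ : ∃ w : H', ∀ h, Φ (L h) = ⟪w, h⟫ := by
    refine ⟨(InnerProductSpace.toDual ℝ H').symm (Φ.comp L), fun h => ?_⟩
    rw [InnerProductSpace.toDual_symm_apply]
    rfl
  refine ⟨e w, ?_⟩
  ext φ
  rw [NormedSpace.dual_def]
  obtain ⟨h, hh⟩ : ∃ h : H', ∀ u, φ (e u) = ⟪h, u⟫ := by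
    refine ⟨(InnerProductSpace.toDual ℝ H').symm (φ.comp (e : H' →L[ℝ] X)), fun u => ?_⟩
    rw [InnerProductSpace.toDual_symm_apply]
    rfl
  have hφ : φ = L h := by
    ext x
    rw [hL, ← hh]
    simp
  rw [hh w, hφ, hw, real_inner_comm]

section Sum

set_option linter.unusedSectionVars false

variable {E : ℕ → Type*} [∀ n, NormedAddCommGroup (E n)] [∀ n, NormedSpace ℝ (E n)]

theorem norm_sq_lp (z : lp E 2) : ‖z‖ ^ 2 = ∑' n, ‖z n‖ ^ 2 := by
  have h := lp.norm_rpow_eq_tsum (p := 2) (by norm_num) z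
  simpa using h

theorem summable_norm_sq_lp (z : lp E 2) : Summable fun n => ‖z n‖ ^ 2 := by
  have h := (lp.memℓp z).summable (by norm_num)
  simpa using h

theorem sum_norm_sq_le (z : lp E 2) (s : Finset ℕ) : ∑ n ∈ s, ‖z n‖ ^ 2 ≤ ‖z‖ ^ 2 := by
  have h := lp.sum_rpow_le_norm_rpow (p := 2) (by norm_num) z s
  simpa using h

theorem memlp_of_sum_le (z : ∀ n, E n) (C : ℝ) (h : ∀ s : Finset ℕ, ∑ n ∈ s, ‖z n‖ ^ 2 ≤ C) :
    Memℓp z 2 := by
  apply memℓp_gen' (C := C)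
  intro s
  simpa using h s

/-- Cauchy-Schwarz for finite sums in the `ℓ²` sum. -/
theorem sum_mul_norm_le (a : ℕ → ℝ) (z : lp E 2) (s : Finset ℕ) :
    ∑ n ∈ s, |a n| * ‖z n‖ ≤ Real.sqrt (∑ n ∈ s, a n ^ 2) * ‖z‖ := by
  calc ∑ n ∈ s, |a n| * ‖z n‖
      ≤ Real.sqrt (∑ n ∈ s, |a n| ^ 2) * Real.sqrt (∑ n ∈ s, ‖z n‖ ^ 2) :=
        Real.sum_mul_le_sqrt_mul_sqrt s _ _
    _ ≤ Real.sqrt (∑ n ∈ s, a n ^ 2) * ‖z‖ := by
        simp only [sq_abs]
        gcongr
        rw [Real.sqrt_le_left (norm_nonneg z)]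
        exact sum_norm_sq_le z s

/-- The `ℓ²` sum of reflexive spaces is reflexive. -/
theorem isReflexive_lp (hE : ∀ n, IsReflexive (E n)) : IsReflexive (lp E 2) := by
  classical
  intro Φ
  -- coordinates
  let ev : ∀ n, lp E 2 →L[ℝ] E n := fun n => lp.evalCLM ℝ E 2 n
  have hev : ∀ n z, ev n z = z n := fun n z => rfl
  let sg : ∀ n, E n →L[ℝ] lp E 2 := fun n => lp.singleContinuousLinearMap ℝ E 2 n
  have hsg : ∀ n a, sg n a = lp.single 2 n a := fun n a => rfl
  let T : ∀ n, StrongDual ℝ (E n) →L[ℝ] StrongDual ℝ (lp E 2) :=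
    fun n => (ContinuousLinearMap.compL ℝ (lp E 2) (E n) ℝ).flip (ev n)
  have hT : ∀ n ψ z, T n ψ z = ψ (z n) := fun n ψ z => rfl
  choose x hx using fun n => hE n (Φ.comp (T n))
  have hx' : ∀ n (ψ : StrongDual ℝ (E n)), ψ (x n) = Φ (T n ψ) := by
    intro n ψ
    have := congrArg (fun F => F ψ) (hx n)
    simpa using this
  -- the coordinates are square summable
  have hsum : ∀ s : Finset ℕ, ∑ n ∈ s, ‖x n‖ ^ 2 ≤ ‖Φ‖ ^ 2 := by
    intro s
    choose ψ hψ1 hψ2 using fun n => exists_dual_vector'' ℝ (x n)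
    set Ψ : StrongDual ℝ (lp E 2) := ∑ n ∈ s, ‖x n‖ • T n (ψ n) with hΨ
    have hnorm : ‖Ψ‖ ≤ Real.sqrt (∑ n ∈ s, ‖x n‖ ^ 2) := by
      apply ContinuousLinearMap.opNorm_le_bound _ (Real.sqrt_nonneg _)
      intro z
      calc ‖Ψ z‖ = ‖∑ n ∈ s, ‖x n‖ * (ψ n) (z n)‖ := by
            rw [hΨ, sum_apply]
            rfl
        _ ≤ ∑ n ∈ s, ‖‖x n‖ * (ψ n) (z n)‖ := norm_sum_le _ _
        _ ≤ ∑ n ∈ s, |‖x n‖| * ‖z n‖ := by
            apply Finset.sum_le_sum
            intro n _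
            rw [norm_mul]
            gcongr
            · simp
            · calc ‖(ψ n) (z n)‖ ≤ ‖ψ n‖ * ‖z n‖ := (ψ n).le_opNorm _
                _ ≤ 1 * ‖z n‖ := by gcongr; exact hψ1 n
                _ = ‖z n‖ := one_mul _
        _ ≤ _ := sum_mul_norm_le _ z s
    have hval : Φ Ψ = ∑ n ∈ s, ‖x n‖ ^ 2 := by
      rw [hΨ, map_sum]
      apply Finset.sum_congr rfl
      intro n _
      rw [map_smul, ← hx', hψ2]
      simp [sq]
    have hle : ∑ n ∈ s, ‖x n‖ ^ 2 ≤ ‖Φ‖ * Real.sqrt (∑ n ∈ s, ‖x n‖ ^ 2) := by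
      rw [← hval]
      calc Φ Ψ ≤ ‖Φ Ψ‖ := Real.le_norm_self _
        _ ≤ ‖Φ‖ * ‖Ψ‖ := Φ.le_opNorm _
        _ ≤ _ := by
          rw [hval]
          gcongr
    set Q := ∑ n ∈ s, ‖x n‖ ^ 2 with hQ
    have hQ0 : 0 ≤ Q := Finset.sum_nonneg fun n _ => by positivity
    have h1 : Real.sqrt Q ^ 2 = Q := Real.sq_sqrt hQ0
    have h2 : Real.sqrt Q ≤ ‖Φ‖ := by
      by_contra hcon
      push Not at hcon
      have h3 : 0 < Real.sqrt Q := lt_of_le_of_lt (norm_nonneg Φ) hcon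
      nlinarith
    calc Q = Real.sqrt Q ^ 2 := h1.symm
      _ ≤ ‖Φ‖ ^ 2 := by gcongr
  let xx : lp E 2 := ⟨x, memlp_of_sum_le x _ hsum⟩
  have hxx : ∀ n, xx n = x n := fun n => rfl
  refine ⟨xx, ?_⟩
  ext φ
  rw [NormedSpace.dual_def]
  -- components of `φ`
  let p : ∀ n, StrongDual ℝ (E n) := fun n => φ.comp (sg n)
  have hp : ∀ n a, p n a = φ (lp.single 2 n a) := fun n a => rfl
  have hφz : ∀ z : lp E 2, HasSum (fun n => p n (z n)) (φ z) := by
    intro z
    have := (lp.hasSum_single (p := 2) (by norm_num) z).mapL φ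
    exact this
  -- square summability of the norms of the components
  have hpsum : ∀ s : Finset ℕ, ∑ n ∈ s, ‖p n‖ ^ 2 ≤ 4 * ‖φ‖ ^ 2 := by
    intro s
    have hex : ∀ n, ∃ a : E n, ‖a‖ ≤ 1 ∧ ‖p n‖ / 2 ≤ p n a := by
      intro n
      rcases eq_or_ne ‖p n‖ 0 with h0 | h0
      · exact ⟨0, by simp, by simp [h0]⟩
      · have hlt : ‖p n‖ / 2 < ‖p n‖ := by
          have : 0 < ‖p n‖ := lt_of_le_of_ne (norm_nonneg _) (Ne.symm h0)
          linarith
        obtain ⟨a, ha1, ha2⟩ := (p n).exists_lt_apply_of_lt_opNorm hlt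
        rcases le_total 0 (p n a) with hh | hh
        · refine ⟨a, ha1.le, ?_⟩
          rw [Real.norm_of_nonneg hh] at ha2
          exact ha2.le
        · refine ⟨-a, by simpa using ha1.le, ?_⟩
          rw [Real.norm_of_nonpos hh] at ha2
          rw [map_neg]
          exact ha2.le
    choose a ha1 ha2 using hex
    set z : lp E 2 := ∑ n ∈ s, ‖p n‖ • lp.single 2 n (a n) with hz
    have hzn : ‖z‖ ^ 2 ≤ ∑ n ∈ s, ‖p n‖ ^ 2 := by
      have h1 : z = ∑ n ∈ s, lp.single 2 n (‖p n‖ • a n) := by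
        rw [hz]
        apply Finset.sum_congr rfl
        intro n _
        rw [lp.single_smul]
      have h2 := lp.norm_sum_single (p := 2) (by norm_num) (fun n => ‖p n‖ • a n) s
      rw [h1]
      have h3 : ‖∑ n ∈ s, lp.single 2 n (‖p n‖ • a n)‖ ^ 2 = ∑ n ∈ s, ‖‖p n‖ • a n‖ ^ 2 := by
        simpa using h2
      rw [h3]
      apply Finset.sum_le_sum
      intro n _
      rw [norm_smul, norm_norm]
      have := ha1 n
      have h4 : ‖p n‖ * ‖a n‖ ≤ ‖p n‖ * 1 := by gcongr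
      rw [mul_one] at h4
      gcongr
    have hφzz : (∑ n ∈ s, ‖p n‖ ^ 2) / 2 ≤ φ z := by
      rw [hz, map_sum, Finset.sum_div]
      apply Finset.sum_le_sum
      intro n _
      rw [map_smul, smul_eq_mul, ← hp]
      calc ‖p n‖ ^ 2 / 2 = ‖p n‖ * (‖p n‖ / 2) := by ring
        _ ≤ ‖p n‖ * p n (a n) := by gcongr; exact ha2 n
    set Q := ∑ n ∈ s, ‖p n‖ ^ 2 with hQ
    have hQ0 : 0 ≤ Q := Finset.sum_nonneg fun n _ => by positivity
    have hφz2 : φ z ≤ ‖φ‖ * ‖z‖ := (Real.le_norm_self _).trans (φ.le_opNorm z)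
    have h1 : Real.sqrt Q ^ 2 = Q := Real.sq_sqrt hQ0
    have h2 : ‖z‖ ≤ Real.sqrt Q := by
      apply Real.le_sqrt_of_sq_le hzn
    have h3 : Q / 2 ≤ ‖φ‖ * Real.sqrt Q := by
      calc Q / 2 ≤ φ z := hφzz
        _ ≤ ‖φ‖ * ‖z‖ := hφz2
        _ ≤ _ := by gcongr
    have h4 : Real.sqrt Q ≤ 2 * ‖φ‖ := by
      by_contra hcon
      push Not at hcon
      have h5 : 0 < Real.sqrt Q := lt_of_le_of_lt (by positivity) hcon
      nlinarith
    calc Q = Real.sqrt Q ^ 2 := h1.symm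
      _ ≤ (2 * ‖φ‖) ^ 2 := by gcongr
      _ = 4 * ‖φ‖ ^ 2 := by ring
  have hps : Summable fun n => ‖p n‖ ^ 2 :=
    summable_of_sum_le (fun n => by positivity) hpsum
  -- `φ` is the sum of its components
  have hφsum : HasSum (fun n => T n (p n)) φ := by
    rw [HasSum, SummationFilter.unconditional_filter, Metric.tendsto_atTop]
    intro ε hε
    obtain ⟨s0, hs0⟩ := (summable_iff_vanishing_norm.mp hps) ((ε / 2) ^ 2) (by positivity)
    refine ⟨s0, fun s hs => ?_⟩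
    rw [dist_comm, dist_eq_norm]
    refine lt_of_le_of_lt ?_ (by linarith : ε / 2 < ε)
    apply ContinuousLinearMap.opNorm_le_bound _ (by positivity)
    intro z
    have h1 : HasSum (fun n => if n ∈ s then 0 else p n (z n)) (φ z - ∑ n ∈ s, p n (z n)) := by
      have h2 := (hφz z).sub (hasSum_sum_of_ne_finset_zero (s := s)
        (f := fun n => if n ∈ s then p n (z n) else 0) (by intro b hb; simp [hb]))
      have h3 : ∑ b ∈ s, (if b ∈ s then p b (z b) else 0) = ∑ n ∈ s, p n (z n) := by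
        apply Finset.sum_congr rfl
        intro b hb
        simp [hb]
      rw [h3] at h2
      convert! h2 using 1
      ext n
      split_ifs <;> simp
    have h4 : (φ - ∑ n ∈ s, T n (p n)) z = φ z - ∑ n ∈ s, p n (z n) := by
      rw [sub_apply, sum_apply]
      rfl
    rw [h4]
    refine le_of_tendsto (h1.norm) (Filter.Eventually.of_forall fun t => ?_)
    calc ‖∑ n ∈ t, (if n ∈ s then 0 else p n (z n))‖
        ≤ ∑ n ∈ t, ‖(if n ∈ s then 0 else p n (z n))‖ := norm_sum_le _ _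
      _ = ∑ n ∈ t \ s, ‖p n (z n)‖ := by
          rw [← Finset.sum_filter_add_sum_filter_not t (fun n => n ∈ s)]
          have e1 : ∑ n ∈ t with n ∈ s, ‖(if n ∈ s then 0 else p n (z n))‖ = 0 := by
            apply Finset.sum_eq_zero
            intro n hn
            simp [(Finset.mem_filter.mp hn).2]
          rw [e1, zero_add]
          have e2 : t.filter (fun n => ¬ n ∈ s) = t \ s := by
            ext n; simp
          rw [e2]
          apply Finset.sum_congr rfl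
          intro n hn
          simp [(Finset.mem_sdiff.mp hn).2]
      _ ≤ ∑ n ∈ t \ s, |‖p n‖| * ‖z n‖ := by
          apply Finset.sum_le_sum
          intro n _
          rw [abs_of_nonneg (norm_nonneg _)]
          exact (p n).le_opNorm _
      _ ≤ Real.sqrt (∑ n ∈ t \ s, ‖p n‖ ^ 2) * ‖z‖ := sum_mul_norm_le _ z _
      _ ≤ ε / 2 * ‖z‖ := by
          gcongr
          have h5 := hs0 (t \ s) (by
            apply Finset.disjoint_left.mpr
            intro n hn hn0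
            exact (Finset.mem_sdiff.mp hn).2 (hs hn0))
          rw [Real.norm_of_nonneg (Finset.sum_nonneg fun n _ => by positivity)] at h5
          rw [Real.sqrt_le_left (by positivity)]
          exact h5.le
  -- conclusion
  have h1 : HasSum (fun n => Φ (T n (p n))) (Φ φ) := hφsum.mapL Φ
  have h2 : HasSum (fun n => p n (xx n)) (φ xx) := hφz xx
  have h3 : (fun n => Φ (T n (p n))) = fun n => p n (xx n) := by
    ext n
    rw [← hx']
  rw [h3] at h1
  exact h2.unique h1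

end Sum

end Vale.Agent.P069
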