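import Mathlib
import Vale.Agent.P069.BlockMain
import Vale.Agent.P069.Reflexive

set_option autoImplicit false

/-!
# The space `XS`, its AMUC norm
-/

namespace Vale.Agent.P069

open scoped RealInnerProductSpace

/-- The `ℓ²` sum of the blocks. -/
abbrev XS : Type := lp (fun n => XB n) 2

theorem isReflexive_XS : IsReflexive XS :=
  isReflexive_lp fun n => isReflexive_of_hilbert (eXB n)

/-- The common kernel of finitely many functionals is closed and of finite codimension. -/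
theorem exists_cof {X : Type*} [NormedAddCommGroup X] [NormedSpace ℝ X]
    (T : Finset (StrongDual ℝ X)) : ∃ F : Cof X, ∀ y ∈ F.1, ∀ φ ∈ T, φ y = 0 := by
  let L : X →L[ℝ] (T → ℝ) := ContinuousLinearMap.pi fun φ : T => (φ : StrongDual ℝ X)
  refine ⟨⟨LinearMap.ker (L : X →ₗ[ℝ] (T → ℝ)), ?_, ?_⟩, ?_⟩
  · exact L.isClosed_ker
  · exact Module.Finite.equiv (LinearMap.quotKerEquivRange (L : X →ₗ[ℝ] (T → ℝ))).symm
  · intro y hy φ hφ
    have h1 : L y = 0 := hy
    exact congrFun h1 ⟨φ, hφ⟩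

theorem hasSum_norm_sq {E : ℕ → Type*} [∀ n, NormedAddCommGroup (E n)] (z : lp E 2) :
    HasSum (fun n => ‖z n‖ ^ 2) (‖z‖ ^ 2) := by
  have h := lp.hasSum_norm (p := 2) (by norm_num) z
  simpa using h

/-- One coordinate of the lower estimate. -/
theorem coord_estimate {V : Type*} [NormedAddCommGroup V] [NormedSpace ℝ V] (x y : V)
    (a b η : ℝ) (hη : 0 < η) (ha : ‖x‖ = a) (hb : ‖y‖ = b)
    (τ : ℝ) (hτ : τ = 1 ∨ τ = -1) (h1 : Real.sqrt (a ^ 2 + b ^ 2 / 64) - η ≤ ‖x + τ • y‖)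
    (h2 : a - η ≤ ‖x - τ • y‖) :
    2 * a ^ 2 + b ^ 2 / 64 - 2 * η * (2 * a + b) ≤ ‖x + y‖ ^ 2 + ‖x - y‖ ^ 2 := by
  have ha0 : 0 ≤ a := ha ▸ norm_nonneg x
  have hb0 : 0 ≤ b := hb ▸ norm_nonneg y
  have hsym : ‖x + y‖ ^ 2 + ‖x - y‖ ^ 2 = ‖x + τ • y‖ ^ 2 + ‖x - τ • y‖ ^ 2 := by
    rcases hτ with rfl | rfl
    · simp
    · simp only [neg_smul, one_smul, sub_neg_eq_add, ← sub_eq_add_neg]
      ring
  rw [hsym]
  set A := Real.sqrt (a ^ 2 + b ^ 2 / 64) with hA
  have hA0 : 0 ≤ A := Real.sqrt_nonneg _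
  have hA2 : A ^ 2 = a ^ 2 + b ^ 2 / 64 := Real.sq_sqrt (by positivity)
  have hAle : A ≤ a + b := by
    rw [hA, Real.sqrt_le_left (by positivity)]
    nlinarith [mul_nonneg ha0 hb0, sq_nonneg b]
  have k1 : A ^ 2 - 2 * A * η ≤ ‖x + τ • y‖ ^ 2 := by
    rcases le_total 0 (A - η) with h | h
    · nlinarith [norm_nonneg (x + τ • y)]
    · nlinarith [norm_nonneg (x + τ • y), sq_nonneg ‖x + τ • y‖]
  have k2 : a ^ 2 - 2 * a * η ≤ ‖x - τ • y‖ ^ 2 := by
    rcases le_total 0 (a - η) with h | h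
    · nlinarith [norm_nonneg (x - τ • y)]
    · nlinarith [norm_nonneg (x - τ • y), sq_nonneg ‖x - τ • y‖]
  nlinarith

theorem numeric_end (κ η M X P Q c : ℝ) (hκ0 : 0 < κ) (hη : η = κ / (8 * (2 + κ)))
    (hM0 : 0 ≤ M) (hX : 1 - η ≤ X) (hP : P ≤ (M + η) ^ 2) (hQ : Q ≤ (M + η) ^ 2)
    (hc : c ≤ κ / 2) (hmain : 2 * X ^ 2 + 4 * κ - c ≤ P + Q) : Real.sqrt (1 + κ) ≤ M := by
  have hη0 : 0 < η := by rw [hη]; positivity
  have hη1 : η ≤ 1 := by
    rw [hη, div_le_one (by positivity)]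
    linarith
  have hsq : (1 - η) ^ 2 ≤ X ^ 2 := by
    have : 0 ≤ 1 - η := by linarith
    gcongr
  have hMη : (1 - η) ^ 2 + 7 / 4 * κ ≤ (M + η) ^ 2 := by linarith
  have hkey : (Real.sqrt (1 + κ) + η) ^ 2 ≤ (1 - η) ^ 2 + 7 / 4 * κ := by
    set r := Real.sqrt (1 + κ) with hr
    have hr2 : r ^ 2 = 1 + κ := Real.sq_sqrt (by positivity)
    have hr1 : r ≤ 1 + κ := by
      rw [hr, Real.sqrt_le_left (by positivity)]
      nlinarith
    have h8 : η * (8 * (2 + κ)) = κ := by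
      rw [hη]; field_simp
    have h9 : 2 * η * r ≤ 2 * η * (1 + κ) := by
      apply mul_le_mul_of_nonneg_left hr1 (by positivity)
    nlinarith
  have hfin : Real.sqrt (1 + κ) + η ≤ M + η := by
    have h0 : 0 ≤ Real.sqrt (1 + κ) + η := by positivity
    have h1 : 0 ≤ M + η := by positivity
    exact le_of_sq_le_sq (hkey.trans hMη) h1
  linarith

/-- The midpoint convexity estimate for the norm of `XS`. -/
theorem amuc_estimate (x : XS) (hx : ‖x‖ = 1) (t : ℝ) (ht : 0 < t) :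
    ∃ F : Cof XS, ∀ y ∈ F.1, ‖y‖ = 1 →
      Real.sqrt (1 + t ^ 2 / 256) ≤ max ‖x + t • y‖ ‖x - t • y‖ := by
  classical
  set κ := t ^ 2 / 256 with hκ
  have hκ0 : 0 < κ := by positivity
  set η := κ / (8 * (2 + κ)) with hη
  have hη0 : 0 < η := by positivity
  -- truncation
  obtain ⟨s, hs⟩ : ∃ s : Finset ℕ, ‖x - ∑ n ∈ s, lp.single 2 n (x n)‖ < η := by
    have h := lp.hasSum_single (p := 2) (by norm_num) x
    rw [HasSum, SummationFilter.unconditional_filter, Metric.tendsto_atTop] at h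
    obtain ⟨s, hs⟩ := h η hη0
    refine ⟨s, ?_⟩
    have := hs s (le_refl _)
    rwa [dist_comm, dist_eq_norm] at this
  set x' : XS := ∑ n ∈ s, lp.single 2 n (x n) with hx'
  have hx'n : ∀ n, x' n = if n ∈ s then x n else 0 := by
    intro n
    rw [hx', lp.coeFn_sum, Finset.sum_apply]
    simp only [lp.coeFn_single]
    rw [Finset.sum_pi_single]
  have hx'1 : 1 - η ≤ ‖x'‖ := by
    have h1 : ‖x‖ ≤ ‖x - x'‖ + ‖x'‖ := by
      have := norm_add_le (x - x') x'
      simpa using this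
    linarith
  have hx'2 : ‖x'‖ ≤ 1 + η := by
    have h1 : ‖x'‖ ≤ ‖x - x'‖ + ‖x‖ := by
      have := norm_sub_le x (x - x')
      simp only [sub_sub_cancel] at this
      linarith
    linarith
  set η' := κ / (4 * (s.card + 1) * (2 + t)) with hη'
  have hη'0 : 0 < η' := by positivity
  choose T hT using fun n => block_property n (x n) hη'0
  obtain ⟨F, hF⟩ := exists_cof (X := XS) (s.biUnion fun n => (T n).image fun φ =>
    φ.comp (lp.evalCLM ℝ (fun n => XB n) 2 n))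
  refine ⟨F, fun y hy hy1 => ?_⟩
  set w : XS := t • y with hw
  have hwn : ‖w‖ = t := by rw [hw, norm_smul, hy1, mul_one, Real.norm_of_nonneg ht.le]
  -- coordinatewise estimate
  have hcoord : ∀ n, 2 * ‖x' n‖ ^ 2 + ‖w n‖ ^ 2 / 64 - (if n ∈ s then 2 * η' * (2 + t) else 0) ≤
      ‖(x' + w) n‖ ^ 2 + ‖(x' - w) n‖ ^ 2 := by
    intro n
    have e1 : (x' + w) n = x' n + w n := rfl
    have e2 : (x' - w) n = x' n - w n := rfl
    rw [e1, e2]
    by_cases hn : n ∈ s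
    · rw [if_pos hn, hx'n n, if_pos hn]
      have hTw : ∀ φ ∈ T n, φ (w n) = 0 := by
        intro φ hφ
        have h1 := hF y hy (φ.comp (lp.evalCLM ℝ (fun n => XB n) 2 n))
          (Finset.mem_biUnion.mpr ⟨n, hn, Finset.mem_image_of_mem _ hφ⟩)
        have h2 : φ (y n) = 0 := h1
        have h3 : w n = t • (y n) := rfl
        rw [h3, map_smul, h2, smul_zero]
      obtain ⟨τ, hτ, k1, k2⟩ := hT n (w n) hTw
      have h3 := coord_estimate (x n) (w n) ‖x n‖ ‖w n‖ η' hη'0 rfl rfl τ hτ k1 k2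
      have h4 : ‖x n‖ ≤ 1 := by
        have := lp.norm_apply_le_norm (p := 2) (by norm_num) x n
        linarith
      have h5 : ‖w n‖ ≤ t := by
        have := lp.norm_apply_le_norm (p := 2) (by norm_num) w n
        linarith
      have h6 : 2 * η' * (2 * ‖x n‖ + ‖w n‖) ≤ 2 * η' * (2 + t) := by
        apply mul_le_mul_of_nonneg_left _ (by positivity)
        linarith
      linarith
    · rw [if_neg hn, hx'n n, if_neg hn]
      simp only [zero_add, zero_sub, norm_neg, norm_zero]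
      nlinarith [sq_nonneg ‖w n‖]
  have hsumL : HasSum (fun n => 2 * ‖x' n‖ ^ 2 + ‖w n‖ ^ 2 / 64 -
      (if n ∈ s then 2 * η' * (2 + t) else 0))
      (2 * ‖x'‖ ^ 2 + ‖w‖ ^ 2 / 64 - ∑ n ∈ s, (if n ∈ s then 2 * η' * (2 + t) else 0)) := by
    refine HasSum.sub (HasSum.add ((hasSum_norm_sq x').mul_left 2) ?_) ?_
    · exact (hasSum_norm_sq w).div_const 64
    · exact hasSum_sum_of_ne_finset_zero (by intro b hb; simp [hb])
  have hsumR : HasSum (fun n => ‖(x' + w) n‖ ^ 2 + ‖(x' - w) n‖ ^ 2)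
      (‖x' + w‖ ^ 2 + ‖x' - w‖ ^ 2) := (hasSum_norm_sq _).add (hasSum_norm_sq _)
  have hmain := hasSum_le hcoord hsumL hsumR
  have hcard : ∑ n ∈ s, (if n ∈ s then 2 * η' * (2 + t) else 0) ≤ κ / 2 := by
    have h1 : ∑ n ∈ s, (if n ∈ s then 2 * η' * (2 + t) else 0) = s.card * (2 * η' * (2 + t)) := by
      rw [Finset.sum_congr rfl (g := fun _ => 2 * η' * (2 + t)) (by intro n hn; simp [hn])]
      simp
    rw [h1, hη']
    have h2 : (s.card : ℝ) * (2 * (κ / (4 * (s.card + 1) * (2 + t))) * (2 + t))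
        = (κ / 2) * (s.card / (s.card + 1)) := by
      field_simp
      ring
    rw [h2]
    have h3 : (s.card : ℝ) / (s.card + 1) ≤ 1 := by
      rw [div_le_one (by positivity)]; linarith
    nlinarith
  rw [hwn] at hmain
  set M := max ‖x + w‖ ‖x - w‖ with hM
  have hM0 : 0 ≤ M := le_max_of_le_left (norm_nonneg _)
  have hp : ‖x' + w‖ ≤ M + η := by
    have h1 : ‖x' + w‖ ≤ ‖x + w‖ + ‖x - x'‖ := by
      have := norm_sub_le (x + w) (x - x')
      have e : x + w - (x - x') = x' + w := by abel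
      rwa [e] at this
    have h2 : ‖x + w‖ ≤ M := le_max_left _ _
    linarith
  have hm : ‖x' - w‖ ≤ M + η := by
    have h1 : ‖x' - w‖ ≤ ‖x - w‖ + ‖x - x'‖ := by
      have := norm_sub_le (x - w) (x - x')
      have e : x - w - (x - x') = x' - w := by abel
      rwa [e] at this
    have h2 : ‖x - w‖ ≤ M := le_max_right _ _
    linarith
  have hp2 : ‖x' + w‖ ^ 2 ≤ (M + η) ^ 2 := by
    have := norm_nonneg (x' + w)
    gcongr
  have hm2 : ‖x' - w‖ ^ 2 ≤ (M + η) ^ 2 := by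
    have := norm_nonneg (x' - w)
    gcongr
  have ht2 : t ^ 2 / 64 = 4 * κ := by rw [hκ]; ring
  rw [ht2] at hmain
  exact numeric_end κ η M ‖x'‖ _ _ _ hκ0 hη hM0 hx'1 hp2 hm2 hcard hmain

theorem amucModulus_XS (t : ℝ) (ht : 0 < t) :
    ((Real.sqrt (1 + t ^ 2 / 256) - 1 : ℝ) : EReal) ≤ amucModulus (normSeminorm ℝ XS) t := by
  unfold amucModulus
  refine le_iInf fun x => ?_
  obtain ⟨F, hF⟩ := amuc_estimate x.1 (by simpa using x.2) t ht
  refine le_iSup_of_le F ?_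
  refine le_iInf fun y => ?_
  have h := hF y.1 y.2.1 (by simpa using y.2.2)
  rw [EReal.coe_le_coe_iff]
  simp only [coe_normSeminorm]
  linarith

theorem isAMUC_XS : IsAMUC (normSeminorm ℝ XS) := by
  intro t ht
  refine lt_of_lt_of_le ?_ (amucModulus_XS t ht)
  rw [← EReal.coe_zero, EReal.coe_lt_coe_iff]
  have h1 : (1 : ℝ) < Real.sqrt (1 + t ^ 2 / 256) := by
    rw [Real.lt_sqrt (by norm_num)]
    have : 0 < t ^ 2 / 256 := by positivity
    linarith
  linarith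

theorem amucRenormable_XS : AMUCRenormable XS :=
  ⟨normSeminorm ℝ XS, ⟨1, 1, one_pos, one_pos, fun x => by simp⟩, isAMUC_XS⟩

end Vale.Agent.P069
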