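import Mathlib
import Vale.Agent.P069.Space

set_option autoImplicit false

/-!
# `XS` has no equivalent AUC norm
-/

namespace Vale.Agent.P069

open scoped RealInnerProductSpace

/-- unit vector of `H` at the node `s` -/
noncomputable def eH (s : List ℕ) : H := lp.single 2 s (1 : ℝ)

theorem eH_apply (s r : List ℕ) : eH s r = if r = s then 1 else 0 := by
  unfold eH
  rw [lp.coeFn_single, Pi.single_apply]

theorem inner_eH (g : H) (s : List ℕ) : ⟪g, eH s⟫ = g s := by
  unfold eH
  rw [lp.inner_single_right]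
  simp

theorem norm_eH (s : List ℕ) : ‖eH s‖ = 1 := by
  unfold eH
  rw [lp.norm_single (by norm_num)]
  simp

theorem S_eH (s r : List ℕ) : S (fun q => eH s q) r = if s <:+ r then 1 else 0 := by
  induction r with
  | nil =>
    simp only [S, eH_apply, List.suffix_nil]
    by_cases h : s = []
    · simp [h]
    · rw [if_neg h, if_neg (fun hh => h hh.symm)]
  | cons i r ih =>
    have h0 : S (fun q => eH s q) (i :: r) = S (fun q => eH s q) r + eH s (i :: r) := rfl
    rw [h0, ih, eH_apply]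
    by_cases h : s = i :: r
    · have h2 : ¬ s <:+ r := by
        intro hs
        have := hs.length_le
        rw [h] at this
        simp at this
      have h3 : s <:+ i :: r := List.suffix_cons_iff.mpr (Or.inl h)
      rw [if_neg h2, if_pos h.symm, if_pos h3]
      norm_num
    · have h4 : ¬ i :: r = s := fun hh => h hh.symm
      rw [if_neg h4, add_zero]
      by_cases h2 : s <:+ r
      · rw [if_pos h2, if_pos (List.suffix_cons_iff.mpr (Or.inr h2))]
      · have h3 : ¬ s <:+ i :: r := fun hh => (List.suffix_cons_iff.mp hh).elim h h2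
        rw [if_neg h2, if_neg h3]

theorem eH_mem_K (n : ℕ) (s : List ℕ) : eH s ∈ K n := by
  refine ⟨(norm_eH s).le, fun r _ => ?_⟩
  rw [S_eH]
  split_ifs <;> simp

theorem one_le_NB_eH (n : ℕ) (s : List ℕ) : 1 ≤ NB n (eH s) := by
  have h := le_NB (eH_mem_K n s) (eH s)
  rw [inner_eH, eH_apply, if_pos rfl] at h
  exact h

/-- The sum of the unit vectors along the branch from the root to `s`. -/
noncomputable def bH : List ℕ → H
  | [] => eH []
  | (i :: s) => bH s + eH (i :: s)

theorem inner_bH (g : H) (s : List ℕ) : ⟪g, bH s⟫ = S (fun r => g r) s := by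
  induction s with
  | nil => simp only [bH, S, inner_eH]
  | cons i s ih => simp only [bH, S, inner_add_right, ih, inner_eH]

theorem NB_bH_le (n : ℕ) (s : List ℕ) (hs : s.length ≤ n) : NB n (bH s) ≤ 1 := by
  refine NB_le fun g hg => ?_
  rw [inner_bH]
  exact (abs_le.mp (hg.2 s hs)).2

/-- The embedding of the `n`-th block into `XS`. -/
noncomputable def ι (n : ℕ) : H →L[ℝ] XS :=
  (lp.singleContinuousLinearMap ℝ (fun n => XB n) 2 n).comp (eXB n : H →L[ℝ] XB n)

theorem norm_ι (n : ℕ) (x : H) : ‖ι n x‖ = NB n x := by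
  have h := lp.norm_single (E := fun n => XB n) (p := 2) (by norm_num) n (eXB n x)
  exact h

theorem tendsto_functional (n : ℕ) (s : List ℕ) (φ : StrongDual ℝ XS) :
    Filter.Tendsto (fun i : ℕ => φ (ι n (eH (i :: s)))) Filter.atTop (nhds 0) := by
  set h := (InnerProductSpace.toDual ℝ H).symm (φ.comp (ι n)) with hh
  have h1 : ∀ i : ℕ, φ (ι n (eH (i :: s))) = h (i :: s) := by
    intro i
    rw [← inner_eH, hh, InnerProductSpace.toDual_symm_apply]
    rfl
  simp only [h1]
  have h2 : Summable fun r : List ℕ => ‖h r‖ ^ 2 := by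
    have := (lp.memℓp h).summable (by norm_num)
    simpa using this
  have h3 : Summable fun i : ℕ => ‖h (i :: s)‖ ^ 2 :=
    h2.comp_injective (i := fun i : ℕ => i :: s) (fun a b hab => (List.cons.inj hab).1)
  have h4 := h3.tendsto_atTop_zero
  have h5 : Filter.Tendsto (fun i : ℕ => Real.sqrt (‖h (i :: s)‖ ^ 2)) Filter.atTop
      (nhds (Real.sqrt 0)) := (Real.continuous_sqrt.tendsto 0).comp h4
  rw [Real.sqrt_zero] at h5
  rw [tendsto_zero_iff_norm_tendsto_zero]
  simpa [Real.sqrt_sq_eq_abs] using h5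

theorem exists_near_cof (n : ℕ) (s : List ℕ) (F : Cof XS) {ε : ℝ} (hε : 0 < ε) :
    ∃ i : ℕ, ∃ y ∈ F.1, ‖ι n (eH (i :: s)) - y‖ < ε := by
  obtain ⟨F, hFc, hFd⟩ := F
  have := hFc
  let π : XS →L[ℝ] (XS ⧸ F) := F.mkQ.mkContinuous 1 (fun x => by
    rw [one_mul]; exact Submodule.Quotient.norm_mk_le F x)
  have hπ : ∀ x, π x = Submodule.Quotient.mk x := fun x => rfl
  have htend : Filter.Tendsto (fun i : ℕ => π (ι n (eH (i :: s)))) Filter.atTop (nhds 0) := by
    let b := Module.finBasis ℝ (XS ⧸ F)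
    have h1 : ∀ v : XS ⧸ F, v = ∑ j, (LinearMap.toContinuousLinearMap (b.coord j)) v • b j := by
      intro v
      conv_lhs => rw [← b.sum_repr v]
      rfl
    have h2 : Filter.Tendsto (fun i : ℕ => ∑ j,
        (LinearMap.toContinuousLinearMap (b.coord j)) (π (ι n (eH (i :: s)))) • b j)
        Filter.atTop (nhds (∑ j, (0 : ℝ) • b j)) := by
      apply tendsto_finsetSum
      intro j _
      have h3 := tendsto_functional n s
        ((LinearMap.toContinuousLinearMap (b.coord j)).comp π)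
      exact h3.smul_const (b j)
    simp only [zero_smul, Finset.sum_const_zero] at h2
    refine h2.congr fun i => ?_
    rw [← h1]
  rw [tendsto_zero_iff_norm_tendsto_zero, Metric.tendsto_atTop] at htend
  obtain ⟨i, hi⟩ := htend (ε / 2) (by positivity)
  have hi' := hi i (le_refl _)
  rw [dist_zero_right, norm_norm] at hi'
  obtain ⟨m, hm1, hm2⟩ := Submodule.Quotient.norm_mk_lt (π (ι n (eH (i :: s))))
    (ε := ε / 2) (by positivity)
  refine ⟨i, ι n (eH (i :: s)) - m, ?_, ?_⟩
  · have : (Submodule.Quotient.mk (ι n (eH (i :: s))) : XS ⧸ F) = Submodule.Quotient.mk m := by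
      rw [hm1]; rfl
    exact (Submodule.Quotient.eq F).mp this
  · simp only [sub_sub_cancel]
    linarith

theorem seminorm_comb {X : Type*} [NormedAddCommGroup X] [NormedSpace ℝ X] (N : Seminorm ℝ X)
    (A B : X) {α β : ℝ} (hα : 0 ≤ α) (hβ : 0 ≤ β) : N (α • A + β • B) ≤ α * N A + β * N B := by
  refine (map_add_le_add N _ _).trans ?_
  rw [map_smul_eq_mul, map_smul_eq_mul, Real.norm_of_nonneg hα, Real.norm_of_nonneg hβ]

theorem exists_of_lt_aucModulus {X : Type*} [NormedAddCommGroup X] [NormedSpace ℝ X]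
    (N : Seminorm ℝ X) (t δ : ℝ) (h : (δ : EReal) < aucModulus N t) (x : X) (hx : N x = 1) :
    ∃ F : Cof X, ∀ y ∈ F.1, N y = 1 → 1 + δ ≤ N (x + t • y) := by
  unfold aucModulus at h
  have h1 := lt_of_lt_of_le h (iInf_le _ ⟨x, hx⟩)
  obtain ⟨F, hF⟩ := lt_iSup_iff.mp h1
  refine ⟨F, fun y hyF hy1 => ?_⟩
  have h2 := lt_of_lt_of_le hF (iInf_le _ ⟨y, hyF, hy1⟩)
  rw [EReal.coe_lt_coe_iff] at h2
  linarith

theorem isAUC_of_finiteDimensional {X : Type*} [NormedAddCommGroup X] [NormedSpace ℝ X]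
    [FiniteDimensional ℝ X] (N : Seminorm ℝ X) : IsAUC N := by
  intro t _
  unfold aucModulus
  refine lt_of_lt_of_le (b := ((1 : ℝ) : EReal)) ?_ ?_
  · rw [← EReal.coe_zero, EReal.coe_lt_coe_iff]; norm_num
  · refine le_iInf fun x => ?_
    refine le_iSup_of_le ⟨⊥, ?_, ?_⟩ ?_
    · simp
    · infer_instance
    · refine le_iInf fun y => ?_
      exfalso
      have h1 : y.1 = 0 := by simpa using y.2.1
      have h2 := y.2.2
      rw [h1, map_zero] at h2
      norm_num at h2

/-- A quantitative growth step along a branch. -/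
theorem growth_step {N : Seminorm ℝ XS} {a b δ : ℝ} (ha : 0 < a) (hb : 0 < b) (hδ : 0 < δ)
    (hN : ∀ x : XS, a * ‖x‖ ≤ N x ∧ N x ≤ b * ‖x‖)
    (hAUC : ∀ x : XS, N x = 1 → ∃ F : Cof XS, ∀ y ∈ F.1, N y = 1 →
      1 + δ ≤ N (x + (a / (2 * b)) • y))
    (n : ℕ) (s : List ℕ) (hs : s.length ≤ n) (ρ : ℝ) (hρ : a ≤ ρ) (hz : ρ ≤ N (ι n (bH s))) :
    ∃ i : ℕ, ρ * (1 + δ / 2) ≤ N (ι n (bH (i :: s))) := by
  set z := ι n (bH s) with hzdef
  set t := a / (2 * b) with ht
  have ht0 : 0 < t := by positivity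
  have hNz : 0 < N z := by linarith
  have hz1 : N z ≤ b := by
    have h1 := (hN z).2
    have h2 : ‖z‖ ≤ 1 := by rw [hzdef, norm_ι]; exact NB_bH_le n s hs
    nlinarith
  have hunit : N ((N z)⁻¹ • z) = 1 := by
    rw [map_smul_eq_mul, Real.norm_of_nonneg (by positivity)]
    field_simp
  obtain ⟨F, hF⟩ := hAUC _ hunit
  set ε := min (a / (2 * b)) (a * δ / (2 * b)) with hε
  have hε0 : 0 < ε := by positivity
  obtain ⟨i, y, hyF, hy⟩ := exists_near_cof n s F hε0
  refine ⟨i, ?_⟩
  set u := ι n (eH (i :: s)) with hu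
  have hNuy : N (u - y) ≤ b * ε := by
    have := (hN (u - y)).2
    nlinarith
  have hbε1 : b * ε ≤ a / 2 := by
    calc b * ε ≤ b * (a / (2 * b)) := by gcongr; exact min_le_left _ _
      _ = a / 2 := by field_simp
  have hbε2 : b * ε ≤ a * δ / 2 := by
    calc b * ε ≤ b * (a * δ / (2 * b)) := by gcongr; exact min_le_right _ _
      _ = a * δ / 2 := by field_simp
  have hNu : a ≤ N u := by
    have h1 := (hN u).1
    have h2 : 1 ≤ ‖u‖ := by rw [hu, norm_ι]; exact one_le_NB_eH n _
    nlinarith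
  have hNy : a / 2 ≤ N y := by
    have h1 : N u ≤ N (u - y) + N y := by
      have := map_add_le_add N (u - y) y
      simpa using this
    linarith
  have hNy0 : 0 < N y := by linarith
  -- the normalized vector
  set yh := (N y)⁻¹ • y with hyh
  have hyhF : yh ∈ F.1 := F.1.smul_mem _ hyF
  have hyh1 : N yh = 1 := by
    rw [hyh, map_smul_eq_mul, Real.norm_of_nonneg (by positivity)]
    field_simp
  have hstep := hF yh hyhF hyh1
  set c := N y / N z with hc
  have htc : t ≤ c := by
    rw [ht, hc, div_le_div_iff₀ (by positivity) hNz]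
    nlinarith
  have hc0 : 0 < c := by positivity
  -- convexity
  have hconv : 1 + δ ≤ N ((N z)⁻¹ • z + c • yh) := by
    have h1 : (N z)⁻¹ • z + t • yh
        = (1 - t / c) • ((N z)⁻¹ • z) + (t / c) • ((N z)⁻¹ • z + c • yh) := by
      rw [smul_add, sub_smul, one_smul, smul_smul (t / c) c]
      have : t / c * c = t := by field_simp
      rw [this]
      abel
    have h2 : N ((N z)⁻¹ • z + t • yh)
        ≤ (1 - t / c) * 1 + (t / c) * N ((N z)⁻¹ • z + c • yh) := by
      have h3 : 0 ≤ 1 - t / c := by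
        rw [sub_nonneg, div_le_one hc0]; exact htc
      have h4 := seminorm_comb N ((N z)⁻¹ • z) ((N z)⁻¹ • z + c • yh) h3
        (by positivity : 0 ≤ t / c)
      rw [← h1, hunit] at h4
      exact h4
    have h4 : 0 < t / c := by positivity
    have h5 : t / c ≤ 1 := by rw [div_le_one hc0]; exact htc
    by_contra hcon
    push Not at hcon
    have h6 : (t / c) * N ((N z)⁻¹ • z + c • yh) < (t / c) * (1 + δ) := by
      exact mul_lt_mul_of_pos_left hcon h4
    nlinarith
  have hzy : N (z + y) = N z * N ((N z)⁻¹ • z + c • yh) := by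
    have h1 : z + y = N z • ((N z)⁻¹ • z + c • yh) := by
      rw [smul_add, smul_smul, smul_smul, hyh, smul_smul, mul_inv_cancel₀ hNz.ne', one_smul, hc]
      have : N z * (N y / N z) * (N y)⁻¹ = 1 := by field_simp
      rw [this, one_smul]
    conv_lhs => rw [h1]
    rw [map_smul_eq_mul, Real.norm_of_nonneg hNz.le]
  have hzy2 : ρ * (1 + δ) ≤ N (z + y) := by
    rw [hzy]
    calc ρ * (1 + δ) ≤ N z * (1 + δ) := by gcongr
      _ ≤ _ := by gcongr
  have hb' : ι n (bH (i :: s)) = z + u := by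
    simp only [bH, map_add, hzdef, hu]
  have hlast : N (z + y) ≤ N (z + u) + N (u - y) := by
    have h1 : z + y = (z + u) - (u - y) := by abel
    rw [h1]
    exact map_sub_le_add N _ _
  rw [hb']
  nlinarith

theorem not_aucRenormable_XS : ¬ AUCRenormable XS := by
  rintro ⟨N, ⟨a, b, ha, hb, hN⟩, hAUC⟩
  have hpos := hAUC (a / (2 * b)) (by positivity)
  obtain ⟨δ, hδ1, hδ2⟩ := EReal.lt_iff_exists_real_btwn.mp hpos
  have hδ0 : 0 < δ := by
    rw [← EReal.coe_zero, EReal.coe_lt_coe_iff] at hδ1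
    exact hδ1
  have hstep : ∀ x : XS, N x = 1 → ∃ F : Cof XS, ∀ y ∈ F.1, N y = 1 →
      1 + δ ≤ N (x + (a / (2 * b)) • y) := fun x hx =>
    exists_of_lt_aucModulus N _ δ hδ2 x hx
  -- growth along branches
  have hgrow : ∀ n k : ℕ, k ≤ n → ∃ s : List ℕ, s.length = k ∧
      a * (1 + δ / 2) ^ k ≤ N (ι n (bH s)) := by
    intro n k
    induction k with
    | zero =>
      intro _
      refine ⟨[], rfl, ?_⟩
      have h1 := (hN (ι n (bH []))).1
      have h2 : 1 ≤ ‖ι n (bH [])‖ := by
        rw [norm_ι]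
        exact one_le_NB_eH n []
      simp only [pow_zero, mul_one]
      nlinarith
    | succ k ih =>
      intro hk
      obtain ⟨s, hs, hsN⟩ := ih (by omega)
      have hρ : a ≤ a * (1 + δ / 2) ^ k := by
        have : 1 ≤ (1 + δ / 2) ^ k := one_le_pow₀ (by linarith)
        nlinarith
      obtain ⟨i, hi⟩ := growth_step ha hb hδ0 hN hstep n s (by omega) _ hρ hsN
      refine ⟨i :: s, by simp [hs], ?_⟩
      calc a * (1 + δ / 2) ^ (k + 1) = a * (1 + δ / 2) ^ k * (1 + δ / 2) := by ring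
        _ ≤ _ := hi
  obtain ⟨n, hn⟩ := pow_unbounded_of_one_lt (b / a) (by linarith : (1 : ℝ) < 1 + δ / 2)
  obtain ⟨s, hs, hsN⟩ := hgrow n n le_rfl
  have h1 := (hN (ι n (bH s))).2
  have h2 : ‖ι n (bH s)‖ ≤ 1 := by rw [norm_ι]; exact NB_bH_le n s hs.le
  rw [div_lt_iff₀ ha] at hn
  nlinarith

theorem not_finiteDimensional_XS : ¬ FiniteDimensional ℝ XS := by
  intro hfin
  exact not_aucRenormable_XS ⟨normSeminorm ℝ XS,
    ⟨1, 1, one_pos, one_pos, fun x => by simp⟩, isAUC_of_finiteDimensional _⟩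

end Vale.Agent.P069
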