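import Mathlib
import Vale.Agent.P069.NotAUC

set_option autoImplicit false

/-!
# `XS` is separable
-/

namespace Vale.Agent.P069

theorem separable_XS : TopologicalSpace.SeparableSpace XS := by
  classical
  set A : Set XS := Set.range (fun p : ℕ × List ℕ => ι p.1 (eH p.2)) with hA
  have hAc : A.Countable := Set.countable_range _
  have h1 : TopologicalSpace.IsSeparable (Submodule.span ℝ A : Set XS) := hAc.isSeparable.span
  set M : Submodule ℝ XS := (Submodule.span ℝ A).topologicalClosure with hM
  have hMc : IsClosed (M : Set XS) := (Submodule.span ℝ A).isClosed_topologicalClosure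
  have hι : ∀ n (h : H), ι n h ∈ M := by
    intro n h
    have hs := (lp.hasSum_single (p := 2) (by norm_num) h).mapL (ι n)
    rw [HasSum] at hs
    refine hMc.mem_of_tendsto hs (Filter.Eventually.of_forall fun t => ?_)
    refine sum_mem fun s _ => ?_
    have h2 : (lp.single 2 s (h s) : H) = (h s) • eH s := by
      unfold eH
      rw [← lp.single_smul]
      simp
    rw [h2, map_smul]
    apply M.smul_mem
    exact (Submodule.le_topologicalClosure _) (Submodule.subset_span ⟨(n, s), rfl⟩)
  have htop : ∀ x : XS, x ∈ M := by
    intro x
    have hs := lp.hasSum_single (p := 2) (by norm_num) x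
    rw [HasSum] at hs
    refine hMc.mem_of_tendsto hs (Filter.Eventually.of_forall fun t => ?_)
    refine sum_mem fun n _ => ?_
    have h2 : (lp.single 2 n (x n) : XS) = ι n ((eXB n).symm (x n)) := by
      show _ = lp.single 2 n ((eXB n) ((eXB n).symm (x n)))
      rw [ContinuousLinearEquiv.apply_symm_apply]
    rw [h2]
    exact hι _ _
  rw [← TopologicalSpace.isSeparable_univ_iff]
  refine h1.closure.mono ?_
  intro x _
  exact htop x

end Vale.Agent.P069
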